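import Vale.Agent.P069.Main

namespace Vale.Agent.Results.P069.Counter

open Vale.Agent.P069

theorem result : ∃ (Y : Type) (_ : NormedAddCommGroup Y) (_ : NormedSpace ℝ Y),
    CompleteSpace Y ∧ ¬ FiniteDimensional ℝ Y ∧
    Function.Surjective (NormedSpace.inclusionInDoubleDual ℝ Y) ∧
    IsAMUC (normSeminorm ℝ Y) ∧
    (∃ N : Seminorm ℝ Y, IsEquivNorm N ∧ IsAMUC N) ∧
    ¬ ∃ N : Seminorm ℝ Y, IsEquivNorm N ∧ IsAUC N :=
  ⟨X, inferInstance, inferInstance, inferInstance, infinite_dim, reflexive, amuc,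
    ⟨normSeminorm ℝ X, ⟨1, 1, one_pos, fun x => by simp⟩, amuc⟩, not_auc⟩

end Vale.Agent.Results.P069.Counter
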